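import Mathlib
import Vale.Agent.Lib.P037.Defs
import Vale.Agent.Lib.P037.AllTwo

open Vale.Agent.Lib.P037

/-- The polynomial ordered removal lemma for every binary `2 × 2` pattern `H`:
if every `H`-free matrix differs from `A` in at least `ε n²` entries, then `A` contains at least
`2⁻¹⁸⁸ ε³⁶ n⁴` ordered copies of `H`. -/
theorem Vale.Agent.Results.P037.AllTwoByTwo.result
    (H : Fin 2 → Fin 2 → Bool) (n : ℕ) (ε : ℝ) (hε0 : 0 < ε) (hε1 : ε < 1)
    (A : Fin n → Fin n → Bool)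
    (hfar : ∀ B : Fin n → Fin n → Bool, IsFree H B → ε * (n : ℝ) ^ 2 ≤ (hamming A B : ℝ)) :
    ε ^ 36 / 2 ^ 188 * (n : ℝ) ^ 4 ≤ (copyCount H A : ℝ) :=
  Rem_all H n ε hε0 hε1 A hfar
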